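import Vale.Agent.Helper7.FoulkesWeights

namespace Vale.Agent.Results.P181.AllWeights

open Vale.Agent.Helper7 Vale.Agent.Helper7.FoulkesDefs

/-- Letters `L` are a basis of `V`; `Sym (Sym L b) a` and `Sym (Sym L a) b` are the monomial
bases of `Sym^a (Sym^b V)` and `Sym^b (Sym^a V)`.
(1) A linear map `Ψ` given on monomials by the Foulkes-Howe formula exists.
(2) Every such `Ψ` is injective on the span of all monomials in which a fixed letter `z0`
occurs at least `ab - b - 1` times. -/
theorem result (K : Type*) [Field K] [CharZero K] (L : Type*) [DecidableEq L] (a b : ℕ) :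
    (∃ Ψ : (Sym (Sym L b) a →₀ K) →ₗ[K] (Sym (Sym L a) b →₀ K),
      ∀ A : Fin a → Fin b → L,
        Ψ (Finsupp.single (rowsOf A) 1) =
          ∑ τ : Fin a → Equiv.Perm (Fin b),
            Finsupp.single (colsOf fun i j => A i (τ i j)) 1) ∧
    (∀ Ψ : (Sym (Sym L b) a →₀ K) →ₗ[K] (Sym (Sym L a) b →₀ K),
      (∀ A : Fin a → Fin b → L,
        Ψ (Finsupp.single (rowsOf A) 1) =
          ∑ τ : Fin a → Equiv.Perm (Fin b),
            Finsupp.single (colsOf fun i j => A i (τ i j)) 1) →
      ∀ (z0 : L) (x : Sym (Sym L b) a →₀ K),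
        (∀ m ∈ x.support, a * b ≤ (weight m).count z0 + b + 1) →
        Ψ x = 0 → x = 0) :=
  ⟨FoulkesAux.exists_psi K a b L,
    fun Ψ hΨ z0 x hx h0 => FoulkesWeights.inj_all_weights K a b z0 Ψ hΨ x hx h0⟩

end Vale.Agent.Results.P181.AllWeights
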