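import Vale.Agent.Helper7.FoulkesHW

namespace Vale.Agent.Results.P181.HighestWeight

open Vale.Agent.Helper7 Vale.Agent.Helper7.FoulkesDefs Vale.Agent.Helper7.FoulkesHWDefs

/-- `V = K^n` with basis `Fin n`; `Sym (Sym (Fin n) b) a` and `Sym (Sym (Fin n) a) b` are the
monomial bases of `Sym^a (Sym^b V)` and `Sym^b (Sym^a V)`.
(1) The operators `E_{i j}` of `gl(V)` (derivations replacing one letter `j` by `i`) exist on
both modules.
(2) For every weight `μ` in which some letter has multiplicity at least `ab - b - 1`, the space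
of highest weight vectors of weight `μ` in `Sym^a (Sym^b V)` has dimension at most that of
the space of highest weight vectors of weight `μ` in `Sym^b (Sym^a V)`. -/
theorem result (K : Type*) [Field K] [CharZero K] (n a b : ℕ) :
    (∃ (ER : Fin n → Fin n →
          ((Sym (Sym (Fin n) b) a →₀ K) →ₗ[K] (Sym (Sym (Fin n) b) a →₀ K)))
        (EC : Fin n → Fin n →
          ((Sym (Sym (Fin n) a) b →₀ K) →ₗ[K] (Sym (Sym (Fin n) a) b →₀ K))),
        (∀ i j, IsRaise K i j (ER i j)) ∧ (∀ i j, IsRaise K i j (EC i j))) ∧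
    (∀ (ER : Fin n → Fin n →
          ((Sym (Sym (Fin n) b) a →₀ K) →ₗ[K] (Sym (Sym (Fin n) b) a →₀ K)))
        (EC : Fin n → Fin n →
          ((Sym (Sym (Fin n) a) b →₀ K) →ₗ[K] (Sym (Sym (Fin n) a) b →₀ K))),
        (∀ i j, IsRaise K i j (ER i j)) → (∀ i j, IsRaise K i j (EC i j)) →
        ∀ (z0 : Fin n) (μ : Multiset (Fin n)), a * b ≤ μ.count z0 + b + 1 →
          Module.finrank K (hwSpace K ER μ) ≤ Module.finrank K (hwSpace K EC μ)) :=
  ⟨FoulkesHW.exists_raises K n a b,
    fun ER EC hER hEC z0 μ hμ => FoulkesHW.hw_finrank' K n a b ER hER EC hEC z0 μ hμ⟩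

end Vale.Agent.Results.P181.HighestWeight
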