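import Vale.Agent.Helper7.FoulkesAux

namespace Vale.Agent.Results.P181.StableFoulkesPlus

open Vale.Agent.Helper7 Vale.Agent.Helper7.FoulkesDefs

/-- Letters `L = Option (Fin k)` are a basis of `V` (`dim V = k + 1`); `Sym (Sym L b) a` and
`Sym (Sym L a) b` are the monomial bases of `Sym^a (Sym^b V)` and `Sym^b (Sym^a V)`.
(1) A linear map `Ψ` given on monomials by the Foulkes-Howe formula exists.
(2) For `k ≤ b + 1` every such `Ψ` is injective on the weight space `(ab - k, 1^k)`, spanned by
the monomials in which every letter `some i` occurs exactly once. -/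
theorem result (K : Type*) [Field K] [CharZero K] (a b k : ℕ) (hk : k ≤ b + 1) :
    (∃ Ψ : (Sym (Sym (Option (Fin k)) b) a →₀ K) →ₗ[K] (Sym (Sym (Option (Fin k)) a) b →₀ K),
      ∀ A : Fin a → Fin b → Option (Fin k),
        Ψ (Finsupp.single (rowsOf A) 1) =
          ∑ τ : Fin a → Equiv.Perm (Fin b),
            Finsupp.single (colsOf fun i j => A i (τ i j)) 1) ∧
    (∀ Ψ : (Sym (Sym (Option (Fin k)) b) a →₀ K) →ₗ[K] (Sym (Sym (Option (Fin k)) a) b →₀ K),
      (∀ A : Fin a → Fin b → Option (Fin k),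
        Ψ (Finsupp.single (rowsOf A) 1) =
          ∑ τ : Fin a → Equiv.Perm (Fin b),
            Finsupp.single (colsOf fun i j => A i (τ i j)) 1) →
      ∀ x : Sym (Sym (Option (Fin k)) b) a →₀ K,
        (∀ m ∈ x.support, ∀ i : Fin k, (weight m).count (some i) = 1) →
        Ψ x = 0 → x = 0) :=
  ⟨FoulkesAux.exists_psi K a b _,
    fun Ψ hΨ x hx h0 => FoulkesAux.main_inj' K a b k hk Ψ hΨ x hx h0⟩

end Vale.Agent.Results.P181.StableFoulkesPlus
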